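import Vale.Agent.P162.Bridge

namespace Vale.Agent.Results.P162.ThorpLog

open Vale.Agent.P162

theorem result : ∃ C : ℕ, ∀ d : ℕ, 1 ≤ d →
    tv (2 ^ (d - 1)) (C * d) ≤ 1 / 4 ∧ d - 1 ≤ tmix (2 ^ (d - 1)) ∧ tmix (2 ^ (d - 1)) ≤ C * d := by
  obtain ⟨C, hC⟩ := upper
  refine ⟨C, fun d hd => ?_⟩
  obtain ⟨e, rfl⟩ : ∃ e, d = e + 1 := ⟨d - 1, by omega⟩
  refine ⟨hC e, not_lt.1 fun h => ?_, Nat.sInf_le (hC e)⟩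
  exact absurd (Nat.sInf_mem (s := {t : ℕ | tv (2 ^ e) t ≤ 1 / 4}) ⟨_, hC e⟩)
    (not_le.2 (lower e _ h))

end Vale.Agent.Results.P162.ThorpLog
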